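import Vale.Agent.H88.AffHomeo
import Vale.Agent.H88.E0.Main
import Vale.Agent.H88.Lip.Main

/-!
# P327: three classes of homeomorphisms of Cantor space that induce only the trivial
automorphism of the Turing degrees

Cantor space is `ℕ → Bool` (sets of natural numbers, via characteristic functions); the Turing
degree of a set `A` is that of its characteristic function `fun n => Part.some (A n).toNat`.

Let `Φ` be a continuous bijection of Cantor space (a homeomorphism, since the space is compact
and Hausdorff) that induces an automorphism of the Turing degrees: `A ≤ᵀ B ↔ Φ A ≤ᵀ Φ B` for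
all sets `A`, `B`.  Assume that `Φ` belongs to one of three classes:

1. `Φ` is affine for symmetric difference: `Φ (A Δ B Δ C) = Φ A Δ Φ B Δ Φ C`;
2. `Φ` and its inverse are uniformly `E₀`-invariant: for every `a` there is `b` such that
   whenever two sets agree at all `n ≥ a`, their images agree at all `n ≥ b`;
3. `Φ` is bi-Lipschitz for the standard ultrametric: for some `c`, agreement below `n + c`
   gives agreement of the images below `n`, and agreement of the images below `n + c` gives
   agreement below `n`.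

Then the automorphism is the identity: `Φ A ≡ᵀ A` for every set `A`.

This puts the results of the hand-ins on affine homeomorphisms, on bi-uniformly
`E₀`-invariant homeomorphisms and on bi-Lipschitz bijections into one statement; the three
proofs are `affine_main`, `e0_main` and `lip_main`.
-/

namespace Vale.Agent.Results.P327.A0_ThreeClassesOfHomeomorphisms

theorem result (Φ : (ℕ → Bool) ≃ (ℕ → Bool)) (hcont : Continuous Φ)
    (hT : ∀ A B : ℕ → Bool,
      TuringReducible (fun n => Part.some (A n).toNat) (fun n => Part.some (B n).toNat) ↔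
        TuringReducible (fun n => Part.some (Φ A n).toNat)
          (fun n => Part.some (Φ B n).toNat))
    (hclass :
      (∀ A B C : ℕ → Bool, Φ (fun n => xor (xor (A n) (B n)) (C n)) =
        fun n => xor (xor (Φ A n) (Φ B n)) (Φ C n)) ∨
      ((∀ a : ℕ, ∃ b : ℕ, ∀ X Y : ℕ → Bool, (∀ n, a ≤ n → X n = Y n) →
          ∀ n, b ≤ n → Φ X n = Φ Y n) ∧
        (∀ a : ℕ, ∃ b : ℕ, ∀ X Y : ℕ → Bool, (∀ n, a ≤ n → X n = Y n) →
          ∀ n, b ≤ n → Φ.symm X n = Φ.symm Y n)) ∨
      (∃ c : ℕ,
        (∀ (n : ℕ) (X Y : ℕ → Bool),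
          (∀ i, i < n + c → X i = Y i) → ∀ i, i < n → Φ X i = Φ Y i) ∧
        (∀ (n : ℕ) (X Y : ℕ → Bool),
          (∀ i, i < n + c → Φ X i = Φ Y i) → ∀ i, i < n → X i = Y i))) :
    ∀ A : ℕ → Bool,
      TuringEquivalent (fun n => Part.some (Φ A n).toNat) (fun n => Part.some (A n).toNat) := by
  obtain ⟨Ψ, hΨ⟩ : ∃ Ψ : (ℕ → Bool) ≃ₜ (ℕ → Bool), Ψ.toEquiv = Φ :=
    ⟨hcont.homeoOfEquivCompactToT2, rfl⟩
  subst hΨ
  rcases hclass with haff | ⟨hE, hE'⟩ | ⟨c, hlip, hlip'⟩
  · exact (Vale.Agent.H88.affine_main Ψ haff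
      (fun A B h => ⟨(hT A B).mp h.1, (hT B A).mp h.2⟩)).2
  · exact Vale.Agent.H88.e0_main Ψ hE hE' hT
  · exact Vale.Agent.H88.lip_main Ψ.toEquiv c hlip hlip' hT

end Vale.Agent.Results.P327.A0_ThreeClassesOfHomeomorphisms
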