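import Vale.Agent.H88.AffHomeo

/-!
# P327: affine homeomorphisms of Cantor space induce only the trivial degree map

Cantor space is `ℕ → Bool` (sets of natural numbers, via characteristic functions) with the
product topology; the Turing degree of a set `A` is that of its characteristic function
`fun n => Part.some (A n).toNat`.

Let `Φ` be a homeomorphism of Cantor space which is affine over the two-element field for
coordinatewise `xor` (symmetric difference of sets): `Φ (A + B + C) = Φ A + Φ B + Φ C`.
These are exactly the maps `A ↦ Λ A + Z` with `Λ` a continuous automorphism of the group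
`(ℤ/2)^ℕ` and `Z` a fixed set; they include the maps induced by permutations of `ℕ`, all
translations `A ↦ A + Z` and all additive homeomorphisms.  Assume only that `Φ` maps Turing
equivalent sets to Turing equivalent sets (one direction).  Then `Φ` is computable: it is given
by a computable row-finite matrix `L` and a computable set `Z`, with `Φ A n` equal to the
parity of the number of entries `j` of `L n` with `A j = true`, plus `Z n`.  Consequently
`Φ A ≡ᵀ A` for every `A`.  In particular an automorphism of the Turing degrees induced by
such a map is the identity.
-/

namespace Vale.Agent.Results.P327.B_AffineHomeomorphisms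

theorem result (Φ : (ℕ → Bool) ≃ₜ (ℕ → Bool))
    (haff : ∀ A B C : ℕ → Bool, Φ (fun n => xor (xor (A n) (B n)) (C n)) =
      fun n => xor (xor (Φ A n) (Φ B n)) (Φ C n))
    (hT : ∀ A B : ℕ → Bool,
      TuringEquivalent (fun n => Part.some (A n).toNat) (fun n => Part.some (B n).toNat) →
        TuringEquivalent (fun n => Part.some (Φ A n).toNat)
          (fun n => Part.some (Φ B n).toNat)) :
    (∃ (L : ℕ → List ℕ) (Z : ℕ → Bool), Computable L ∧ Computable Z ∧
        ∀ (A : ℕ → Bool) (n : ℕ), Φ A n = xor (decide (Odd ((L n).countP A))) (Z n)) ∧
      ∀ A : ℕ → Bool,
        TuringEquivalent (fun n => Part.some (Φ A n).toNat) (fun n => Part.some (A n).toNat) :=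
  Vale.Agent.H88.affine_main Φ haff hT

end Vale.Agent.Results.P327.B_AffineHomeomorphisms
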