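import Vale.Agent.H88.E0.Main
import Vale.Agent.H88.SetDegree

/-!
# P327: automorphisms of the Turing degrees induced by bi-uniformly E0-invariant homeomorphisms

The statement of `C_E0InvariantHomeomorphisms` in the terms of the problem itself.

`SetDegree` is the set of Turing degrees of sets of natural numbers (classes of Turing
equivalence of sets `A : ℕ → Bool`), `SetDegree.of A` is the degree of `A`, and
`SetDegree.le a b` is the order of the degrees.  An automorphism of the degrees is a bijection
`π` of `SetDegree` with `a ≤ b ↔ π a ≤ π b`.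

Theorem.  Let `π` be an automorphism of the Turing degrees which is induced by a homeomorphism
`Φ` of Cantor space, `π (deg A) = deg (Φ A)` for all sets `A`, such that `Φ` and its inverse are
uniformly invariant for equality from some point on (for every `a` there is `b` such that
whenever two sets agree from `a` on, their images agree from `b` on).  Then `π` is the
identity.

Proof: the hypotheses give `A ≤ᵀ B ↔ Φ A ≤ᵀ Φ B` for all sets, so `Φ A ≡ᵀ A` for every `A` by
`Vale.Agent.H88.e0_main`, and every degree is the degree of a set.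
-/

namespace Vale.Agent.Results.P327.C0_DegreeAutomorphismsE0

theorem result (π : Vale.Agent.H88.SetDegree ≃ Vale.Agent.H88.SetDegree)
    (hπ : ∀ a b : Vale.Agent.H88.SetDegree,
      Vale.Agent.H88.SetDegree.le a b ↔ Vale.Agent.H88.SetDegree.le (π a) (π b))
    (Φ : (ℕ → Bool) ≃ₜ (ℕ → Bool))
    (hE : ∀ a : ℕ, ∃ b : ℕ, ∀ X Y : ℕ → Bool, (∀ n, a ≤ n → X n = Y n) →
      ∀ n, b ≤ n → Φ X n = Φ Y n)
    (hE' : ∀ a : ℕ, ∃ b : ℕ, ∀ X Y : ℕ → Bool, (∀ n, a ≤ n → X n = Y n) →
      ∀ n, b ≤ n → Φ.symm X n = Φ.symm Y n)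
    (hind : ∀ A : ℕ → Bool,
      π (Vale.Agent.H88.SetDegree.of A) = Vale.Agent.H88.SetDegree.of (Φ A)) :
    ∀ a : Vale.Agent.H88.SetDegree, π a = a := by
  have hT : ∀ A B : ℕ → Bool,
      TuringReducible (fun n => Part.some (A n).toNat) (fun n => Part.some (B n).toNat) ↔
        TuringReducible (fun n => Part.some (Φ A n).toNat)
          (fun n => Part.some (Φ B n).toNat) := by
    intro A B
    have h := hπ (Vale.Agent.H88.SetDegree.of A) (Vale.Agent.H88.SetDegree.of B)
    rw [hind A, hind B, Vale.Agent.H88.SetDegree.le_of_iff,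
      Vale.Agent.H88.SetDegree.le_of_iff] at h
    exact h
  have main := Vale.Agent.H88.e0_main Φ hE hE' hT
  intro a
  obtain ⟨A, rfl⟩ := Vale.Agent.H88.SetDegree.exists_of a
  rw [hind A]
  exact (Vale.Agent.H88.SetDegree.of_eq_of_iff (Φ A) A).2 ⟨(main A).1, (main A).2⟩

end Vale.Agent.Results.P327.C0_DegreeAutomorphismsE0
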