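import Vale.Agent.H88.E0.Main

/-!
# P327: bi-uniformly E0-invariant homeomorphisms induce only the trivial degree automorphism

Cantor space is `ℕ → Bool` (sets of natural numbers, via characteristic functions) with the
product topology; the Turing degree of a set `A` is that of its characteristic function
`fun n => Part.some (A n).toNat`.

Let `Φ` be a homeomorphism of Cantor space such that `Φ` and its inverse are uniformly
invariant for equality from some point on: for every `a` there is `b` such that whenever two
sets agree from `a` on, their images agree from `b` on.  (Every permutation of `ℕ` induces such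
a map, and so does every map that applies an arbitrary bijection to each block of a partition
of `ℕ` into finite intervals, and every composition of such maps.)  Assume that `Φ` induces an
automorphism of the Turing degrees: `A ≤ᵀ B ↔ Φ A ≤ᵀ Φ B` for all sets `A`, `B`.  Then this
automorphism is the identity: `Φ A ≡ᵀ A` for every set `A`.

The proof is elementary (Baire category, no use of the Slaman-Woodin theorems): the conjugate
`Φ ∘ shift ∘ Φ.symm` of the shift is degree-decreasing, hence computed on a comeager set by a
single oracle program (the invariance spreads a local program to the whole space); iterating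
it computes `Φ.symm B` from `B` for generic `B`; finally every set is the symmetric difference
of two generic sets, degree automorphisms preserve joins, and generic sets do not help.
-/

namespace Vale.Agent.Results.P327.C_E0InvariantHomeomorphisms

theorem result (Φ : (ℕ → Bool) ≃ₜ (ℕ → Bool))
    (hE : ∀ a : ℕ, ∃ b : ℕ, ∀ X Y : ℕ → Bool, (∀ n, a ≤ n → X n = Y n) →
      ∀ n, b ≤ n → Φ X n = Φ Y n)
    (hE' : ∀ a : ℕ, ∃ b : ℕ, ∀ X Y : ℕ → Bool, (∀ n, a ≤ n → X n = Y n) →
      ∀ n, b ≤ n → Φ.symm X n = Φ.symm Y n)
    (hT : ∀ A B : ℕ → Bool,
      TuringReducible (fun n => Part.some (A n).toNat) (fun n => Part.some (B n).toNat) ↔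
        TuringReducible (fun n => Part.some (Φ A n).toNat)
          (fun n => Part.some (Φ B n).toNat)) :
    ∀ A : ℕ → Bool,
      TuringEquivalent (fun n => Part.some (Φ A n).toNat) (fun n => Part.some (A n).toNat) :=
  Vale.Agent.H88.e0_main Φ hE hE' hT

end Vale.Agent.Results.P327.C_E0InvariantHomeomorphisms
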