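import Vale.Agent.H88.Lip.Main

/-!
# P327: bi-Lipschitz bijections of Cantor space induce only the trivial automorphism of the
Turing degrees

Cantor space is `ℕ → Bool` (sets of natural numbers, via characteristic functions); the Turing
degree of a set `A` is that of its characteristic function `fun n => Part.some (A n).toNat`.

Let `Φ` be a bijection of Cantor space and `c` a natural number such that `Φ` and its inverse
lose at most `c` values of agreement: if two sets agree below `n + c` then their images agree
below `n`, and if the images agree below `n + c` then the sets agree below `n`.  For the
standard ultrametric (distance `2 ^ (-k)` for two sets whose first difference is at `k`) this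
says that `Φ` and its inverse are Lipschitz with constant `2 ^ c`; every bi-Lipschitz bijection
satisfies it for some `c`, and such a map is a homeomorphism.  The case `c = 0` is the case of
isometries (the automorphisms of the rooted binary tree acting on paths).  Assume that `Φ`
induces an automorphism of the Turing degrees: `A ≤ᵀ B ↔ Φ A ≤ᵀ Φ B` for all sets `A`, `B`.
Then this automorphism is the identity: `Φ A ≡ᵀ A` for every set `A`.

The proof is elementary (Baire category, no use of the Slaman-Woodin theorems).  The group law
of symmetric difference transported by `Φ` is degree-decreasing, hence given by a computable
function on finite strings below a pair of finite strings (the modulus of continuity is known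
up to the constant `c`); together with one computable translation this links any two nodes of
one level below some node by a computable map with a bounded loss; the conjugate of the
insertion of a value links two consecutive levels; so below some node `a` the maps
`a Y ↦ a x Y` are conjugated to computable maps that lose at most `6 * c` values, and a
recursion over a finite string, started from a long enough finite part of the image of a
computable point, computes `Φ (a Y)` from `Y`; finally `Φ X ≤ᵀ Φ (a X) ≤ᵀ X`, and the same for
the inverse.
-/

namespace Vale.Agent.Results.P327.D0_BiLipschitzHomeomorphisms

theorem result (Φ : (ℕ → Bool) ≃ (ℕ → Bool)) (c : ℕ)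
    (hlip : ∀ (n : ℕ) (X Y : ℕ → Bool),
      (∀ i, i < n + c → X i = Y i) → ∀ i, i < n → Φ X i = Φ Y i)
    (hlip' : ∀ (n : ℕ) (X Y : ℕ → Bool),
      (∀ i, i < n + c → Φ X i = Φ Y i) → ∀ i, i < n → X i = Y i)
    (hT : ∀ A B : ℕ → Bool,
      TuringReducible (fun n => Part.some (A n).toNat) (fun n => Part.some (B n).toNat) ↔
        TuringReducible (fun n => Part.some (Φ A n).toNat)
          (fun n => Part.some (Φ B n).toNat)) :
    ∀ A : ℕ → Bool,
      TuringEquivalent (fun n => Part.some (Φ A n).toNat) (fun n => Part.some (A n).toNat) :=
  Vale.Agent.H88.lip_main Φ c hlip hlip' hT

end Vale.Agent.Results.P327.D0_BiLipschitzHomeomorphisms
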