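import Vale.Agent.H88.Iso.Main

/-!
# P327: isometries of Cantor space induce only the trivial automorphism of the Turing degrees

Cantor space is `ℕ → Bool` (sets of natural numbers, via characteristic functions); the Turing
degree of a set `A` is that of its characteristic function `fun n => Part.some (A n).toNat`.

Let `Φ` be a bijection of Cantor space that is an isometry of the standard ultrametric: two
sets agree below `n` if and only if their images agree below `n`.  (Such a map is a
homeomorphism; these maps are exactly the actions on the infinite paths of the automorphisms of
the rooted binary tree, that is the maps `Φ X n = xor (X n) (f (X restricted below n))` for an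
arbitrary function `f` on finite strings: the odometer, all translations by a fixed set, all
unitriangular linear maps.)  Assume that `Φ` induces an automorphism of the Turing degrees:
`A ≤ᵀ B ↔ Φ A ≤ᵀ Φ B` for all sets `A`, `B`.  Then this automorphism is the identity:
`Φ A ≡ᵀ A` for every set `A`.

The proof is elementary (Baire category, no use of the Slaman-Woodin theorems).  The group law
of symmetric difference transported by `Φ` is degree-decreasing, hence given by a computable
function on finite strings below a pair of finite strings (the modulus of continuity is known);
together with one computable translation this links any two nodes of one level below some node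
by a computable map; the conjugate of the insertion of a value links two consecutive levels; so
below some node `a` the maps `a Y ↦ a x Y` are conjugated to computable maps and a recursion
over finite strings computes `Φ (a Y)` from `Y`; finally `Φ X ≤ᵀ Φ (a X) ≤ᵀ X`, and the same
for the inverse.
-/

namespace Vale.Agent.Results.P327.D_IsometriesOfCantorSpace

theorem result (Φ : (ℕ → Bool) ≃ (ℕ → Bool))
    (hiso : ∀ (n : ℕ) (X Y : ℕ → Bool),
      (∀ i, i < n → X i = Y i) ↔ (∀ i, i < n → Φ X i = Φ Y i))
    (hT : ∀ A B : ℕ → Bool,
      TuringReducible (fun n => Part.some (A n).toNat) (fun n => Part.some (B n).toNat) ↔
        TuringReducible (fun n => Part.some (Φ A n).toNat)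
          (fun n => Part.some (Φ B n).toNat)) :
    ∀ A : ℕ → Bool,
      TuringEquivalent (fun n => Part.some (Φ A n).toNat) (fun n => Part.some (A n).toNat) :=
  Vale.Agent.H88.iso_main Φ hiso hT

end Vale.Agent.Results.P327.D_IsometriesOfCantorSpace
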