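import Vale.Agent.H88.LinHomeo

/-!
# P327: additive homeomorphisms of Cantor space induce only the trivial degree map

Cantor space is `ℕ → Bool` (sets of natural numbers, via characteristic functions) with the
product topology; the Turing degree of a set `A` is that of its characteristic function
`fun n => Part.some (A n).toNat`.

Let `Φ` be a homeomorphism of Cantor space which is additive for coordinatewise `xor`
(symmetric difference of sets), that is, a continuous automorphism of the group `(ℤ/2)^ℕ`;
every permutation of `ℕ` induces such a map.  Assume only that `Φ` respects Turing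
equivalence: `A ≡ᵀ B ↔ Φ A ≡ᵀ Φ B`.  Then `Φ` is computable (it is given by a computable
row-finite matrix `L`: `Φ A n` is the parity of the number of entries `j` of `L n` with
`A j = true`), and therefore `Φ A ≡ᵀ A` for every `A`.  In particular an automorphism of the
Turing degrees induced by such a map is the identity.
-/

namespace Vale.Agent.Results.P327.E_LinearHomeomorphisms

theorem result (Φ : (ℕ → Bool) ≃ₜ (ℕ → Bool))
    (hadd : ∀ A B : ℕ → Bool, Φ (fun n => xor (A n) (B n)) = fun n => xor (Φ A n) (Φ B n))
    (hT : ∀ A B : ℕ → Bool,
      TuringEquivalent (fun n => Part.some (A n).toNat) (fun n => Part.some (B n).toNat) ↔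
        TuringEquivalent (fun n => Part.some (Φ A n).toNat)
          (fun n => Part.some (Φ B n).toNat)) :
    (∃ L : ℕ → List ℕ, Computable L ∧
        ∀ (A : ℕ → Bool) (n : ℕ), Φ A n = decide (Odd ((L n).countP A))) ∧
      ∀ A : ℕ → Bool,
        TuringEquivalent (fun n => Part.some (Φ A n).toNat) (fun n => Part.some (A n).toNat) :=
  Vale.Agent.H88.linear_main Φ hadd hT

end Vale.Agent.Results.P327.E_LinearHomeomorphisms
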